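import Vale.Agent.Tri.AE

set_option autoImplicit false

namespace Vale.Agent.Results.P075.DyadicTriangular

open MeasureTheory Tri

/-- The `L^3` norm on the quadrant `[0,∞)^2`. -/
noncomputable def L3 (F : ℝ × ℝ → ℝ) : ℝ :=
  (∫ p in Set.Ici (0 : ℝ) ×ˢ Set.Ici (0 : ℝ), |F p| ^ 3) ^ (1 / 3 : ℝ)

/-- Q2 (dyadic model), positive answer with the explicit constant `864`: for all real bounded compactly
supported (Lebesgue or Borel) measurable functions,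

1. at every scale the sum over the triples in `A_k` converges absolutely;
2. for every finite set `S` of scales the sum of ALL `|L_I|`, `I ∈ A_k`, `k ∈ S`, is at most
   `864 ‖F_0‖_3 ‖F_1‖_3 ‖F_2‖_3`;
3. in particular `|Λ^d_{S,ε}(F_0,F_1,F_2)| ≤ 864 ‖F_0‖_3 ‖F_1‖_3 ‖F_2‖_3` for all real `|ε_k| ≤ 1`. -/
theorem result :
    ∀ F0 F1 F2 : ℝ × ℝ → ℝ,
      AEMeasurable F0 volume → AEMeasurable F1 volume → AEMeasurable F2 volume →
      (∃ B : ℝ, ∀ p, |F0 p| ≤ B ∧ |F1 p| ≤ B ∧ |F2 p| ≤ B) →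
      HasCompactSupport F0 → HasCompactSupport F1 → HasCompactSupport F2 →
      (∀ k : ℤ, Summable fun n : AA => |LI F0 F1 F2 k n.1.1 n.1.2.1 n.1.2.2|) ∧
      (∀ S : Finset ℤ, ∑ k ∈ S, ∑' n : AA, |LI F0 F1 F2 k n.1.1 n.1.2.1 n.1.2.2| ≤
        864 * (L3 F0 * L3 F1 * L3 F2)) ∧
      (∀ (S : Finset ℤ) (ε : ℤ → ℝ), (∀ k ∈ S, |ε k| ≤ 1) →
        |Lam S ε F0 F1 F2| ≤ 864 * (L3 F0 * L3 F1 * L3 F2)) := by
  intro F0 F1 F2 h0 h1 h2 hB c0 c1 c2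
  obtain ⟨B, hB⟩ := hB
  exact final h0 h1 h2 (fun p => (hB p).1) (fun p => (hB p).2.1) (fun p => (hB p).2.2) c0 c1 c2

end Vale.Agent.Results.P075.DyadicTriangular
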